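import Vale.Agent.Lib.P184.MainReps

/-!
# P184: vanishing of Hattori-Stallings coefficients along connected families of unitary
representations

If the character of a pointwise continuous family of finite dimensional unitary representations of
`G`, parametrised by a preconnected space, takes two different values at `g`, then `τ_C(e) = 0` for
the conjugacy class `C` of `g` and every idempotent matrix `e` over `ℓ¹(G)`.
-/

namespace Vale.Agent.Results.P184.UnitaryFamilies

open Vale.Agent.Lib.P184

theorem result {G : Type*} [Group G] {q k : ℕ} (e : Fin q → Fin q → G → ℂ) (he : IsIdemMatrix e)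
    {X : Type*} [TopologicalSpace X] [PreconnectedSpace X]
    (π : X → G →* Matrix.unitaryGroup (Fin k) ℂ)
    (hπ : ∀ g, Continuous fun x => ((π x g : Matrix.unitaryGroup (Fin k) ℂ) : Matrix (Fin k) (Fin k) ℂ))
    (g : G) (x y : X)
    (hne : Matrix.trace ((π x g : Matrix.unitaryGroup (Fin k) ℂ) : Matrix (Fin k) (Fin k) ℂ)
      ≠ Matrix.trace ((π y g : Matrix.unitaryGroup (Fin k) ℂ) : Matrix (Fin k) (Fin k) ℂ)) :
    hsCoeff e (ConjClasses.mk g) = 0 :=
  vanish_of_unitary_family e he π hπ g x y hne

end Vale.Agent.Results.P184.UnitaryFamilies
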