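import Vale.Agent.Lib.P184.MainVirt

/-!
# P184: the Hattori-Stallings trace over `ℓ¹(G)` and abelianizations of finite index subgroups

For every discrete group `G`, every idempotent matrix `e` over `ℓ¹(G)` and every subgroup `H` of
finite index there is a finite set `F` of finite-order elements of the abelianization of `H` such
that every `h ∈ H` whose `G`-conjugacy class has a nonzero coefficient `τ_C(e)` maps into `F`.
-/

namespace Vale.Agent.Results.P184.VirtualAbelianization

open Vale.Agent.Lib.P184

theorem result {G : Type*} [Group G] {q : ℕ} (e : Fin q → Fin q → G → ℂ) (he : IsIdemMatrix e)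
    (H : Subgroup G) [H.FiniteIndex] :
    ∃ F : Finset (Abelianization H), (∀ x ∈ F, IsOfFinOrder x) ∧
      ∀ h : H, hsCoeff e (ConjClasses.mk (h : G)) ≠ 0 → Abelianization.of h ∈ F :=
  support_virtual_abelianization e he H

end Vale.Agent.Results.P184.VirtualAbelianization
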