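import Vale.Agent.Results.P184.AbelianizationSupport
import Vale.Agent.Results.P184.UnitaryFamilies
import Vale.Agent.Results.P184.VirtualAbelianization

/-!
# P184: three unconditional statements on the Hattori-Stallings trace over `ℓ¹(G)`

For every discrete group `G` and every idempotent matrix `e` over `ℓ¹(G)`:
(1) the conjugacy classes with nonzero coefficient map into a finite set of finite-order elements of
the abelianization of `G`;
(2) the same holds for the abelianization of every subgroup `H` of finite index;
(3) the coefficient vanishes at the class of `g` as soon as the character of a pointwise continuous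
family of finite dimensional unitary representations, parametrised by a preconnected space, takes
two different values at `g`.
-/

namespace Vale.Agent.Results.P184.A_Combined

open Vale.Agent.Lib.P184

universe u v

theorem result {G : Type u} [Group G] {q : ℕ} (e : Fin q → Fin q → G → ℂ) (he : IsIdemMatrix e) :
    (∃ F : Finset (Abelianization G), (∀ x ∈ F, IsOfFinOrder x) ∧
      ∀ C : ConjClasses G, hsCoeff e C ≠ 0 → ∀ g ∈ C.carrier, Abelianization.of g ∈ F) ∧
    (∀ (H : Subgroup G) [H.FiniteIndex],
      ∃ F : Finset (Abelianization H), (∀ x ∈ F, IsOfFinOrder x) ∧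
        ∀ h : H, hsCoeff e (ConjClasses.mk (h : G)) ≠ 0 → Abelianization.of h ∈ F) ∧
    (∀ (k : ℕ) (X : Type v) [TopologicalSpace X] [PreconnectedSpace X]
      (π : X → G →* Matrix.unitaryGroup (Fin k) ℂ),
      (∀ g, Continuous fun x =>
        ((π x g : Matrix.unitaryGroup (Fin k) ℂ) : Matrix (Fin k) (Fin k) ℂ)) →
      ∀ (g : G) (x y : X),
        Matrix.trace ((π x g : Matrix.unitaryGroup (Fin k) ℂ) : Matrix (Fin k) (Fin k) ℂ)
          ≠ Matrix.trace ((π y g : Matrix.unitaryGroup (Fin k) ℂ) : Matrix (Fin k) (Fin k) ℂ) →
        hsCoeff e (ConjClasses.mk g) = 0) :=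
  ⟨AbelianizationSupport.result e he,
    fun H _ => VirtualAbelianization.result e he H,
    fun _ _ _ _ π hπ g x y hne => UnitaryFamilies.result e he π hπ g x y hne⟩

end Vale.Agent.Results.P184.A_Combined
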