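import Vale.Agent.Lib.P184.MainAb

/-!
# P184: the Hattori-Stallings trace over `ℓ¹(G)` modulo commutators

For every discrete group `G` and every idempotent matrix `e` over `ℓ¹(G)` there is a finite set `F`
of finite-order elements of the abelianization of `G` such that `τ_C(e) = 0` for every conjugacy
class `C` whose image in the abelianization is not in `F`.
-/

namespace Vale.Agent.Results.P184.AbelianizationSupport

open Vale.Agent.Lib.P184

theorem result {G : Type*} [Group G] {q : ℕ} (e : Fin q → Fin q → G → ℂ) (he : IsIdemMatrix e) :
    ∃ F : Finset (Abelianization G), (∀ x ∈ F, IsOfFinOrder x) ∧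
      ∀ C : ConjClasses G, hsCoeff e C ≠ 0 → ∀ g ∈ C.carrier, Abelianization.of g ∈ F :=
  support_abelianization e he

end Vale.Agent.Results.P184.AbelianizationSupport
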